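import Vale.Agent.P032.S5.H824.Common

/-!
# P032: the common point lemma, set form
-/

open Set Filter Topology Metric

noncomputable section

namespace Vale.Agent.P032.Six

variable {U : Fin 6 → Set ℂ} {T : ℂ → Set (Fin 6)}

theorem TwoPairs.symm {w : ℂ} {P Q : Set (Fin 6)} (h : TwoPairs T w P Q) : TwoPairs T w Q P :=
  fun q h1 h2 h3 => (h q h1 h2 h3).symm

/-- a pair with exactly one element in `S` -/
theorem pair_split {P S : Set (Fin 6)} (hP : P.ncard = 2) (h1 : (P ∩ S).ncard = 1) :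
    ∃ e x, e ≠ x ∧ P = {e, x} ∧ e ∈ S ∧ x ∉ S := by
  obtain ⟨e, he⟩ := Set.ncard_eq_one.1 h1
  have heP : e ∈ P ∩ S := by rw [he]; rfl
  obtain ⟨a, b, hab, rfl⟩ := Set.ncard_eq_two.1 hP
  have key : ∀ i, i ∈ ({a, b} : Set (Fin 6)) → i ∈ S → i = e := by
    intro i hi hiS
    have : i ∈ ({a, b} : Set (Fin 6)) ∩ S := ⟨hi, hiS⟩
    rw [he] at this
    exact this
  rcases heP.1 with h2 | h2
  · subst h2
    refine ⟨e, b, hab, rfl, heP.2, fun hb => hab (key b (Or.inr rfl) hb).symm⟩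
  · have h2 : e = b := h2
    subst h2
    refine ⟨e, a, hab.symm, Set.pair_comm _ _, heP.2, fun ha => hab (key a (Or.inl rfl) ha)⟩

/-- **Common point lemma**, set form -/
theorem Irr.common_pairs (h : Irr U T) {w w' m : ℂ} {P Q P' Q' : Set (Fin 6)}
    (hmw : dist m w = 1) (hmw' : dist m w' = 1) (hne : w ≠ w') (hne2 : w + w' ≠ 2 * m)
    (hcov : ∀ i, i ∈ T w ∨ i ∈ T w')
    (hw4 : (T w).ncard = 4) (hw4' : (T w').ncard = 4)
    (hPQ : T w = P ∪ Q) (hP2 : P.ncard = 2) (hQ2 : Q.ncard = 2)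
    (hPQ' : T w' = P' ∪ Q') (hP2' : P'.ncard = 2) (hQ2' : Q'.ncard = 2)
    (hs : (P ∩ T w').ncard = 1) (hs' : (P' ∩ T w).ncard = 1)
    (hp : TwoPairs T w P Q) (hp' : TwoPairs T w' P' Q') (hm : (T m).ncard ≤ 3) :
    (T m).ncard = 3 ∧ (T m ∩ T w = P ∨ T m ∩ T w = Q) ∧ (T m ∩ T w' = P' ∨ T m ∩ T w' = Q') := by
  -- the pairs are disjoint
  have hdis : ∀ {A B : Set (Fin 6)}, (A ∪ B).ncard = 4 → A.ncard = 2 → B.ncard = 2 →
      ∀ i, i ∈ A → i ∈ B → False := by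
    intro A B h1 h2 h3 i hiA hiB
    have h4 := Set.ncard_union_add_ncard_inter A B (Set.toFinite _) (Set.toFinite _)
    have h5 : 0 < (A ∩ B).ncard := (Set.ncard_pos (Set.toFinite _)).2 ⟨i, hiA, hiB⟩
    omega
  have dPQ := hdis (hPQ ▸ hw4) hP2 hQ2
  have dPQ' := hdis (hPQ' ▸ hw4') hP2' hQ2'
  -- two common colours
  have hun : T w ∪ T w' = univ := eq_univ_of_forall hcov
  have hcard : (T w ∩ T w').ncard = 2 := by
    have h1 := Set.ncard_union_add_ncard_inter (T w) (T w') (Set.toFinite _) (Set.toFinite _)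
    rw [hun, Set.ncard_univ, Nat.card_eq_fintype_card, Fintype.card_fin] at h1
    omega
  have split : ∀ {A B S : Set (Fin 6)}, (∀ i, i ∈ A → i ∈ B → False) →
      ((A ∪ B) ∩ S).ncard = 2 → (A ∩ S).ncard = 1 → (B ∩ S).ncard = 1 := by
    intro A B S h1 h2 h3
    rw [Set.union_inter_distrib_right, Set.ncard_union_eq (by
      rw [Set.disjoint_left]
      exact fun i hi hi' => h1 i hi.1 hi'.1) (Set.toFinite _) (Set.toFinite _)] at h2
    omega
  have hQs : (Q ∩ T w').ncard = 1 := split dPQ (by rw [← hPQ]; exact hcard) hs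
  have hQs' : (Q' ∩ T w).ncard = 1 :=
    split dPQ' (by rw [← hPQ', inter_comm]; exact hcard) hs'
  obtain ⟨e, x, hex, rfl, heS, hxS⟩ := pair_split hP2 hs
  obtain ⟨f, y, hfy, rfl, hfS, hyS⟩ := pair_split hQ2 hQs
  obtain ⟨e', x', hex', rfl, heS', hxS'⟩ := pair_split hP2' hs'
  obtain ⟨f', y', hfy', rfl, hfS', hyS'⟩ := pair_split hQ2' hQs'
  have hTw : ∀ i, i ∈ T w ↔ i = e ∨ i = x ∨ i = f ∨ i = y := by
    intro i; rw [hPQ]; simp only [mem_union, mem_insert_iff, mem_singleton_iff, or_assoc]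
  have hTw' : ∀ i, i ∈ T w' ↔ i = e' ∨ i = x' ∨ i = f' ∨ i = y' := by
    intro i; rw [hPQ']; simp only [mem_union, mem_insert_iff, mem_singleton_iff, or_assoc]
  have nef : e ≠ f := fun h1 => dPQ e (Or.inl rfl) (h1 ▸ Or.inl rfl)
  have ney : e ≠ y := fun h1 => dPQ e (Or.inl rfl) (h1 ▸ Or.inr rfl)
  have nfx : f ≠ x := fun h1 => dPQ f (h1 ▸ Or.inr rfl) (Or.inl rfl)
  have nxy : x ≠ y := fun h1 => dPQ x (Or.inr rfl) (h1 ▸ Or.inr rfl)
  have nef' : e' ≠ f' := fun h1 => dPQ' e' (Or.inl rfl) (h1 ▸ Or.inl rfl)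
  have ney' : e' ≠ y' := fun h1 => dPQ' e' (Or.inl rfl) (h1 ▸ Or.inr rfl)
  have nfx' : f' ≠ x' := fun h1 => dPQ' f' (h1 ▸ Or.inr rfl) (Or.inl rfl)
  have nxy' : x' ≠ y' := fun h1 => dPQ' x' (Or.inr rfl) (h1 ▸ Or.inr rfl)
  have hx_ne : ∀ i, i ∈ T w' → x ≠ i := fun i hi h1 => hxS (h1 ▸ hi)
  have hy_ne : ∀ i, i ∈ T w' → y ≠ i := fun i hi h1 => hyS (h1 ▸ hi)
  have hx'_ne : ∀ i, i ∈ T w → x' ≠ i := fun i hi h1 => hxS' (h1 ▸ hi)
  have hy'_ne : ∀ i, i ∈ T w → y' ≠ i := fun i hi h1 => hyS' (h1 ▸ hi)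
  have mx' : x' ∈ T w' := (hTw' x').2 (Or.inr (Or.inl rfl))
  have my' : y' ∈ T w' := (hTw' y').2 (Or.inr (Or.inr (Or.inr rfl)))
  have mx : x ∈ T w := (hTw x).2 (Or.inr (Or.inl rfl))
  have my : y ∈ T w := (hTw y).2 (Or.inr (Or.inr (Or.inr rfl)))
  have me : e ∈ T w := (hTw e).2 (Or.inl rfl)
  have mf : f ∈ T w := (hTw f).2 (Or.inr (Or.inr (Or.inl rfl)))
  have heq : T w = {e, x, f, y} := by
    ext i; rw [hTw]; simp
  -- the colours `e', f'` are `e, f`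
  have c1 : e' = e ∨ e' = f := by
    rcases (hTw e').1 heS' with h1 | h1 | h1 | h1
    · exact Or.inl h1
    · exact absurd ((hTw' e').2 (Or.inl rfl)) (h1 ▸ hxS)
    · exact Or.inr h1
    · exact absurd ((hTw' e').2 (Or.inl rfl)) (h1 ▸ hyS)
  have c2 : f' = e ∨ f' = f := by
    rcases (hTw f').1 hfS' with h1 | h1 | h1 | h1
    · exact Or.inl h1
    · exact absurd ((hTw' f').2 (Or.inr (Or.inr (Or.inl rfl)))) (h1 ▸ hxS)
    · exact Or.inr h1
    · exact absurd ((hTw' f').2 (Or.inr (Or.inr (Or.inl rfl)))) (h1 ▸ hyS)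
  -- the conclusion from a common point with palette `{g, u, u'}`
  have fin : ∀ g u u', T m = {g, u, u'} → g ≠ u → g ≠ u' → u ≠ u' → g ∈ T w → g ∈ T w' →
      u ∈ T w → u ∉ T w' → u' ∈ T w' → u' ∉ T w →
      (T m).ncard = 3 ∧ T m ∩ T w = {g, u} ∧ T m ∩ T w' = {g, u'} := by
    intro g u u' h1 n1 n2 n3 a1 a2 a3 a4 a5 a6
    refine ⟨by rw [h1]; exact Set.ncard_eq_three.2 ⟨g, u, u', n1, n2, n3, rfl⟩, ?_, ?_⟩
    · rw [h1]
      apply Subset.antisymm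
      · rintro i ⟨h2 | h2 | h2, h3⟩
        · exact Or.inl h2
        · exact Or.inr h2
        · exact absurd (h2 ▸ h3) a6
      · rintro i (h2 | h2)
        · exact ⟨Or.inl h2, h2 ▸ a1⟩
        · exact ⟨Or.inr (Or.inl h2), h2 ▸ a3⟩
    · rw [h1]
      apply Subset.antisymm
      · rintro i ⟨h2 | h2 | h2, h3⟩
        · exact Or.inl h2
        · exact absurd (h2 ▸ h3) a4
        · exact Or.inr h2
      · rintro i (h2 | h2)
        · exact ⟨Or.inl h2, h2 ▸ a2⟩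
        · exact ⟨Or.inr (Or.inr h2), h2 ▸ a5⟩
  rcases c1 with rfl | rfl
  · have hf' : f' = f := by
      rcases c2 with h1 | h1
      · exact absurd h1.symm nef'
      · exact h1
    subst hf'
    have heq' : T w' = {e', x', f', y'} := by
      ext i; rw [hTw']; simp
    have hnd : [e', f', x, y, x', y'].Nodup := by
      simp only [List.nodup_cons, List.mem_cons, List.not_mem_nil, or_false, not_or,
        not_false_eq_true, List.nodup_nil, and_true]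
      exact ⟨⟨nef, hex, ney, hex', ney'⟩, ⟨nfx, hfy, nfx', hfy'⟩,
        ⟨nxy, hx_ne x' mx', hx_ne y' my'⟩, ⟨hy_ne x' mx', hy_ne y' my'⟩, nxy'⟩
    rcases h.common hmw hmw' hne hne2 hnd heq heq' hm hp hp' with ⟨h1, -, -⟩ | ⟨h1, -, -⟩
    · obtain ⟨k1, k2, k3⟩ := fin e' x x' h1 hex hex' (hx_ne x' mx') me heS mx hxS mx' hxS'
      exact ⟨k1, Or.inl k2, Or.inl k3⟩
    · obtain ⟨k1, k2, k3⟩ := fin f' y y' h1 hfy hfy' (hy_ne y' my') mf hfS my hyS my' hyS'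
      exact ⟨k1, Or.inr k2, Or.inr k3⟩
  · have hf' : f' = e := by
      rcases c2 with h1 | h1
      · exact h1
      · exact absurd h1.symm nef'
    subst hf'
    -- now `P' = {f, x'}`, `Q' = {e, y'}`
    have heq' : T w' = {f', y', e', x'} := by
      ext i; rw [hTw']; simp; tauto
    have hnd : [f', e', x, y, y', x'].Nodup := by
      simp only [List.nodup_cons, List.mem_cons, List.not_mem_nil, or_false, not_or,
        not_false_eq_true, List.nodup_nil, and_true]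
      exact ⟨⟨nef, hex, ney, hfy', nfx'⟩, ⟨nfx, hfy, ney', hex'⟩,
        ⟨nxy, hx_ne y' my', hx_ne x' mx'⟩, ⟨hy_ne y' my', hy_ne x' mx'⟩, Ne.symm nxy'⟩
    rcases h.common hmw hmw' hne hne2 hnd heq heq' hm hp hp'.symm with ⟨h1, -, -⟩ | ⟨h1, -, -⟩
    · obtain ⟨k1, k2, k3⟩ := fin f' x y' h1 hex hfy' (hx_ne y' my') me heS mx hxS my' hyS'
      exact ⟨k1, Or.inl k2, Or.inr k3⟩
    · obtain ⟨k1, k2, k3⟩ := fin e' y x' h1 hfy hex' (hy_ne x' mx') mf hfS my hyS mx' hxS'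
      exact ⟨k1, Or.inr k2, Or.inl k3⟩

end Vale.Agent.P032.Six
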