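import Vale.Agent.P032.S5.H824.Two
import Vale.Agent.P032.S5.H824.Pairs
import Vale.Agent.P032.S5.H12.Fld

/-!
# P032: the field `common` of `DNet` for the ends `EE` of an irredundant frame
-/

open Set Filter Topology Metric

noncomputable section

namespace Vale.Agent.P032.Six

variable {U : Fin 6 → Set ℂ} {T : ℂ → Set (Fin 6)}

namespace EE

/-- only the two pairs occur on `S(w)` -/
theorem twoPairs (h : Irr U T) {w v : ℂ} (hv : EE T w v) :
    TwoPairs T w (T w ∩ T v) (T w \ T v) := by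
  obtain ⟨a, b, c, d, h1, h2⟩ := hv.names
  rw [h1, h2]
  exact h.twoPairs (hv.dpt h h1 h2)

/-- **the field `common`** -/
theorem common (h : Irr U T) {w v q w' v' q' m : ℂ} (e1 : EE T w v) (e3 : T q = (T v)ᶜ)
    (e1' : EE T w' v') (e3' : T q' = (T v')ᶜ) (hne : w ≠ w') (hcov : ∀ i, i ∈ T w ∨ i ∈ T w')
    (hmw : Dist.dist m w = 1) (hmw' : Dist.dist m w' = 1) (hne2 : w + w' ≠ 2 * m)
    (hs : (T v ∩ T w ∩ T w').ncard = 1) (hs' : (T v' ∩ T w' ∩ T w).ncard = 1)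
    (hm : (T m).ncard ≤ 3) : (T m).ncard = 3 ∧
      (T m ∩ T w = T v ∩ T w ∨ T m ∩ T w = T q ∩ T w) ∧
      (T m ∩ T w' = T v' ∩ T w' ∨ T m ∩ T w' = T q' ∩ T w') := by
  obtain ⟨k1, k2, k3⟩ := h.common_pairs hmw hmw' hne hne2 hcov e1.card_z e1'.card_z
    (Set.inter_union_sdiff (T w) (T v)).symm e1.card_i e1.card_s
    (Set.inter_union_sdiff (T w') (T v')).symm e1'.card_i e1'.card_s
    (by rw [inter_comm (T w) (T v)]; exact hs) (by rw [inter_comm (T w') (T v')]; exact hs')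
    (e1.twoPairs h) (e1'.twoPairs h) hm
  have f1 : T q ∩ T w = T w \ T v := by rw [e3, Set.sdiff_eq, inter_comm]
  have f2 : T q' ∩ T w' = T w' \ T v' := by rw [e3', Set.sdiff_eq, inter_comm]
  refine ⟨k1, ?_, ?_⟩
  · rw [f1, inter_comm (T v) (T w)]; exact k2
  · rw [f2, inter_comm (T v') (T w')]; exact k3

/-- the field `common`, with the bounds of the clean frame -/
theorem common_clean (h : Irr U T) (h4 : ∀ z, (T z).ncard ≤ 4)
    (hu : ∀ z z', (T z).ncard = 4 → (T z').ncard = 4 → Dist.dist z z' ≠ 1)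
    {w v q w' v' q' m : ℂ} (e1 : EE T w v) (e3 : T q = (T v)ᶜ)
    (e1' : EE T w' v') (e3' : T q' = (T v')ᶜ) (hne : w ≠ w') (hcov : ∀ i, i ∈ T w ∨ i ∈ T w')
    (hmw : Dist.dist m w = 1) (hmw' : Dist.dist m w' = 1) (hne2 : w + w' ≠ 2 * m)
    (hs : (T v ∩ T w ∩ T w').ncard = 1) (hs' : (T v' ∩ T w' ∩ T w).ncard = 1) :
    (T m).ncard = 3 ∧
      (T m ∩ T w = T v ∩ T w ∨ T m ∩ T w = T q ∩ T w) ∧
      (T m ∩ T w' = T v' ∩ T w' ∨ T m ∩ T w' = T q' ∩ T w') := by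
  refine e1.common h e3 e1' e3' hne hcov hmw hmw' hne2 hs hs' ?_
  have h5 := h4 m
  by_contra h6
  exact hu m w (by omega) e1.card_z hmw

end EE

end Vale.Agent.P032.Six
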