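import Vale.Agent.P032.S5.H483.Irr

/-!
# P032: the common point lemma (960 (3))

Two points `w = {e,x | f,y}`, `w' = {e,x' | f,y'}` of an irredundant frame whose palettes cover all six
colours and whose circles carry only the two pairs; a common point `m` of the two circles with at most
three colours has palette `{e,x,x'}` or `{f,y,y'}` and is a limit of arcs of both circles.
-/

open Set Filter Topology Metric

noncomputable section

namespace Vale.Agent.P032.Six

variable {U : Fin 6 → Set ℂ} {T : ℂ → Set (Fin 6)}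

/-- on `S(w)` every locally constant palette inside `T w` is one of the two pairs -/
def TwoPairs (T : ℂ → Set (Fin 6)) (w : ℂ) (P Q : Set (Fin 6)) : Prop :=
  ∀ q, dist q w = 1 → (∀ᶠ q' in 𝓝[sphere w 1] q, T q' = T q) → T q ⊆ T w → T q = P ∨ T q = Q

theorem four_false {M : Set (Fin 6)} (hM : M.ncard ≤ 3) {a b c d : Fin 6} (ha : a ∈ M)
    (hb : b ∈ M) (hc : c ∈ M) (hd : d ∈ M) (h1 : a ≠ b) (h2 : a ≠ c) (h3 : a ≠ d) (h4 : b ≠ c)
    (h5 : b ≠ d) (h6 : c ≠ d) : False := by
  have g1 : (({a, b, c, d} : Finset (Fin 6)) : Set (Fin 6)) ⊆ M := by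
    intro i hi
    simp only [Finset.coe_insert, Finset.coe_singleton, mem_insert_iff, mem_singleton_iff] at hi
    rcases hi with rfl | rfl | rfl | rfl <;> assumption
  have g2 := Set.ncard_le_ncard g1 (Set.toFinite _)
  rw [Set.ncard_coe_finset, Finset.card_insert_of_notMem (by simp [h1, h2, h3]),
    Finset.card_insert_of_notMem (by simp [h4, h5]),
    Finset.card_insert_of_notMem (by simp [h6]), Finset.card_singleton] at g2
  omega

theorem all_six {e f x y x' y' : Fin 6} (hnd : [e, f, x, y, x', y'].Nodup) (i : Fin 6) :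
    i = e ∨ i = f ∨ i = x ∨ i = y ∨ i = x' ∨ i = y' := by
  have h1 : ([e, f, x, y, x', y'].toFinset).card = 6 := by
    rw [List.toFinset_card_of_nodup hnd]; rfl
  have h2 : [e, f, x, y, x', y'].toFinset = Finset.univ :=
    Finset.eq_univ_of_card _ (by rw [h1]; rfl)
  have h3 : i ∈ [e, f, x, y, x', y'].toFinset := by rw [h2]; exact Finset.mem_univ i
  simpa using h3

namespace Irr

/-- a colour of `T v` is not carried by the whole arc of `S(u)` near a common point -/
theorem not_eventually (h : Irr U T) {u v p : ℂ} (hu : dist p u = 1) (hv : dist p v = 1)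
    (hne : v ≠ u) (hne2 : v + u ≠ 2 * p) {t : Fin 6} (ht : t ∈ T v)
    (hJ : ∀ᶠ q in 𝓝[sphere u 1] p, t ∈ T q) : False := by
  rcases h.mx.partner_line hu (hJ.mono fun q hq => h.sub q hq) hv (h.sub v ht) with h1 | h1
  · exact hne h1
  · exact hne2 h1

/-- a point of `S(w)` with palette inside `T w` has one of the two pairs -/
theorem pair_of_subT (h : Irr U T) {w q : ℂ} {P Q : Set (Fin 6)} (hp : TwoPairs T w P Q)
    (hq : dist q w = 1) (hsub : T q ⊆ T w) : P ⊆ T q ∨ Q ⊆ T q := by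
  obtain ⟨q1, -, hq1, hc, hs, -, -⟩ := h.arc_of_sub hq hsub (V := univ) univ_mem
  rcases hp q1 hq1 hc (hs.trans hsub) with h1 | h1
  · exact Or.inl (h1 ▸ hs)
  · exact Or.inr (h1 ▸ hs)

/-- one half of the common point lemma: the circle about `w` -/
theorem common_half (h : Irr U T) {w w' m : ℂ} {e f x y x' y' : Fin 6}
    (hmw : dist m w = 1) (hmw' : dist m w' = 1) (hne : w ≠ w') (hne2 : w + w' ≠ 2 * m)
    (hnd : [e, f, x, y, x', y'].Nodup)
    (hw : T w = {e, x, f, y}) (hw' : T w' = {e, x', f, y'}) (hm : (T m).ncard ≤ 3)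
    (hp : TwoPairs T w {e, x} {f, y}) :
    (x' ∈ T m ∨ y' ∈ T m) ∧
    (e ∉ T m → f ∉ T m → x' ∈ T m ∧ y' ∈ T m) ∧
    (∀ g u u', T m = {g, u, u'} → u' ∈ T w' → g ∈ T w → u ∈ T w →
      ∃ᶠ q in 𝓝[sphere w 1] m, T q ⊆ {g, u} ∧ (({e, x} : Set (Fin 6)) ⊆ T q ∨
        ({f, y} : Set (Fin 6)) ⊆ T q)) := by
  have hnear : ∀ᶠ q in 𝓝[sphere w 1] m, T q ⊆ T m ∧ dist q w = 1 := by
    filter_upwards [mem_nhdsWithin_of_mem_nhds (h.nhd m), self_mem_nhdsWithin] with q h1 h2
    exact ⟨h1, h2⟩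
  have hE : ∀ t ∈ T w', ¬ ∀ᶠ q in 𝓝[sphere w 1] m, t ∈ T q := fun t ht hJ =>
    h.not_eventually hmw hmw' hne.symm (by rw [add_comm]; exact hne2) ht hJ
  have hall := all_six hnd
  have d1 : e ≠ x := by
    simp only [List.nodup_cons, List.mem_cons, List.not_mem_nil, or_false, not_or] at hnd
    exact hnd.1.2.1
  have d2 : e ≠ f := by
    simp only [List.nodup_cons, List.mem_cons, List.not_mem_nil, or_false, not_or] at hnd
    exact hnd.1.1
  have d3 : e ≠ y := by
    simp only [List.nodup_cons, List.mem_cons, List.not_mem_nil, or_false, not_or] at hnd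
    exact hnd.1.2.2.1
  have d4 : x ≠ f := by
    simp only [List.nodup_cons, List.mem_cons, List.not_mem_nil, or_false, not_or] at hnd
    exact Ne.symm hnd.2.1.1
  have d5 : x ≠ y := by
    simp only [List.nodup_cons, List.mem_cons, List.not_mem_nil, or_false, not_or] at hnd
    exact hnd.2.2.1.1
  have d6 : f ≠ y := by
    simp only [List.nodup_cons, List.mem_cons, List.not_mem_nil, or_false, not_or] at hnd
    exact hnd.2.1.2.1
  refine ⟨?_, ?_, ?_⟩
  · by_contra hcon
    push Not at hcon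
    have hsub : T m ⊆ T w := by
      intro i hi
      rw [hw]
      rcases hall i with rfl | rfl | rfl | rfl | rfl | rfl
      · simp
      · simp
      · simp
      · simp
      · exact absurd hi hcon.1
      · exact absurd hi hcon.2
    by_cases hpe : e ∈ T m ∧ x ∈ T m
    · refine hE e (by rw [hw']; simp) ?_
      filter_upwards [hnear] with q hq
      rcases h.pair_of_subT hp hq.2 (hq.1.trans hsub) with h1 | h1
      · exact h1 (by simp)
      · exact (four_false hm hpe.1 hpe.2 (hq.1 (h1 (Or.inl rfl))) (hq.1 (h1 (Or.inr rfl)))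
          d1 d2 d3 d4 d5 d6).elim
    · refine hE f (by rw [hw']; simp) ?_
      filter_upwards [hnear] with q hq
      rcases h.pair_of_subT hp hq.2 (hq.1.trans hsub) with h1 | h1
      · exact absurd ⟨hq.1 (h1 (by simp)), hq.1 (h1 (by simp))⟩ hpe
      · exact h1 (by simp)
  · intro he hf
    have key : ∀ᶠ q in 𝓝[sphere w 1] m, x' ∈ T q ∨ y' ∈ T q := by
      filter_upwards [hnear] with q hq
      by_contra hcon
      push Not at hcon
      have hsub : T q ⊆ T w := by
        intro i hi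
        rw [hw]
        rcases hall i with rfl | rfl | rfl | rfl | rfl | rfl
        · simp
        · simp
        · simp
        · simp
        · exact absurd hi hcon.1
        · exact absurd hi hcon.2
      rcases h.pair_of_subT hp hq.2 hsub with h1 | h1
      · exact he (hq.1 (h1 (by simp)))
      · exact hf (hq.1 (h1 (by simp)))
    constructor
    · by_contra hx'
      refine hE y' (by rw [hw']; simp) ?_
      filter_upwards [hnear, key] with q hq hk
      rcases hk with h1 | h1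
      · exact absurd (hq.1 h1) hx'
      · exact h1
    · by_contra hy'
      refine hE x' (by rw [hw']; simp) ?_
      filter_upwards [hnear, key] with q hq hk
      rcases hk with h1 | h1
      · exact h1
      · exact absurd (hq.1 h1) hy'
  · intro g u u' hTm hu' hg hu
    have h1 : ∃ᶠ q in 𝓝[sphere w 1] m, u' ∉ T q := by
      rw [Filter.Frequently]
      intro hcon
      exact hE u' hu' (hcon.mono fun q hq => not_not.1 hq)
    refine (h1.and_eventually hnear).mono ?_
    rintro q ⟨hq1, hq2, hq3⟩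
    have h2 : T q ⊆ {g, u} := by
      intro i hi
      have h4 := hq2 hi
      rw [hTm] at h4
      rcases h4 with h3 | h3 | h3
      · exact Or.inl h3
      · exact Or.inr h3
      · exact absurd (h3 ▸ hi) hq1
    refine ⟨h2, h.pair_of_subT hp hq3 fun i hi => ?_⟩
    rcases h2 hi with h4 | h4
    · rw [h4]; exact hg
    · rw [h4]; exact hu

/-- the last step on one circle: the pair is the right one -/
theorem common_pair {w m : ℂ} {e f x y g u : Fin 6} (hef : e ≠ f) (hey : e ≠ y) (hfx : f ≠ x)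
    (hxy : x ≠ y) (hex : e ≠ x) (hfy : f ≠ y) (cg : g = e ∨ g = f) (cu : u = x ∨ u = y)
    (hF : ∃ᶠ q in 𝓝[sphere w 1] m, T q ⊆ {g, u} ∧ (({e, x} : Set (Fin 6)) ⊆ T q ∨
        ({f, y} : Set (Fin 6)) ⊆ T q)) :
    (g = e ∧ u = x ∧ ∃ᶠ q in 𝓝[sphere w 1] m, T q = {e, x}) ∨
    (g = f ∧ u = y ∧ ∃ᶠ q in 𝓝[sphere w 1] m, T q = {f, y}) := by
  obtain ⟨q0, hq0, hq0'⟩ := hF.exists
  rcases cg with rfl | rfl <;> rcases cu with rfl | rfl
  · left
    refine ⟨rfl, rfl, hF.mono fun q hq => Subset.antisymm hq.1 ?_⟩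
    rcases hq.2 with h1 | h1
    · exact h1
    · rcases hq.1 (h1 (Or.inl rfl)) with h2 | h2
      · exact absurd h2.symm hef
      · exact absurd h2 hfx
  · exfalso
    rcases hq0' with h1 | h1
    · rcases hq0 (h1 (Or.inr rfl)) with h2 | h2
      · exact hex h2.symm
      · exact hxy h2
    · rcases hq0 (h1 (Or.inl rfl)) with h2 | h2
      · exact hef h2.symm
      · exact hfy h2
  · exfalso
    rcases hq0' with h1 | h1
    · rcases hq0 (h1 (Or.inl rfl)) with h2 | h2
      · exact hef h2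
      · exact hex h2
    · rcases hq0 (h1 (Or.inr rfl)) with h2 | h2
      · exact hfy h2.symm
      · exact hxy h2.symm
  · right
    refine ⟨rfl, rfl, hF.mono fun q hq => Subset.antisymm hq.1 ?_⟩
    rcases hq.2 with h1 | h1
    · rcases hq.1 (h1 (Or.inl rfl)) with h2 | h2
      · exact absurd h2 hef
      · exact absurd h2 hey
    · exact h1

/-- **Common point lemma** (960 (3)) -/
theorem common (h : Irr U T) {w w' m : ℂ} {e f x y x' y' : Fin 6}
    (hmw : dist m w = 1) (hmw' : dist m w' = 1) (hne : w ≠ w') (hne2 : w + w' ≠ 2 * m)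
    (hnd : [e, f, x, y, x', y'].Nodup)
    (hw : T w = {e, x, f, y}) (hw' : T w' = {e, x', f, y'}) (hm : (T m).ncard ≤ 3)
    (hp : TwoPairs T w {e, x} {f, y}) (hp' : TwoPairs T w' {e, x'} {f, y'}) :
    (T m = {e, x, x'} ∧ (∃ᶠ q in 𝓝[sphere w 1] m, T q = {e, x}) ∧
      ∃ᶠ q in 𝓝[sphere w' 1] m, T q = {e, x'}) ∨
    (T m = {f, y, y'} ∧ (∃ᶠ q in 𝓝[sphere w 1] m, T q = {f, y}) ∧
      ∃ᶠ q in 𝓝[sphere w' 1] m, T q = {f, y'}) := by
  have hnd' : [e, f, x', y', x, y].Nodup := by
    have : [e, f, x', y', x, y].Perm [e, f, x, y, x', y'] := by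
      refine List.Perm.cons _ (List.Perm.cons _ ?_)
      exact (List.perm_append_comm (l₁ := [x', y']) (l₂ := [x, y]))
    exact this.nodup_iff.2 hnd
  obtain ⟨hA, hB, hC⟩ := h.common_half hmw hmw' hne hne2 hnd hw hw' hm hp
  obtain ⟨hA', hB', hC'⟩ := h.common_half hmw' hmw hne.symm (by rw [add_comm]; exact hne2) hnd'
    hw' hw hm hp'
  have hn := hnd
  simp only [List.nodup_cons, List.mem_cons, List.not_mem_nil, or_false, not_or, not_false_eq_true,
    and_true, List.nodup_nil] at hn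
  obtain ⟨⟨nef, nex, ney, nex', ney'⟩, ⟨nfx, nfy, nfx', nfy'⟩, ⟨nxy, nxx', nxy'⟩, ⟨nyx', nyy'⟩,
    nx'y'⟩ := hn
  -- the three colours
  have hG : e ∈ T m ∨ f ∈ T m := by
    by_contra hcon
    push Not at hcon
    obtain ⟨h1, h2⟩ := hB hcon.1 hcon.2
    obtain ⟨h3, h4⟩ := hB' hcon.1 hcon.2
    exact four_false hm h1 h2 h3 h4 nx'y' (Ne.symm nxx') (Ne.symm nyx') (Ne.symm nxy')
      (Ne.symm nyy') nxy
  clear hB hB'
  -- the conclusion for one choice of the colours
  have fin : ∀ g u u', g ∈ T m → u ∈ T m → u' ∈ T m → (g = e ∨ g = f) → (u = x ∨ u = y) →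
      (u' = x' ∨ u' = y') → g ≠ u → g ≠ u' → u ≠ u' →
      (T m = {e, x, x'} ∧ (∃ᶠ q in 𝓝[sphere w 1] m, T q = {e, x}) ∧
      ∃ᶠ q in 𝓝[sphere w' 1] m, T q = {e, x'}) ∨
    (T m = {f, y, y'} ∧ (∃ᶠ q in 𝓝[sphere w 1] m, T q = {f, y}) ∧
      ∃ᶠ q in 𝓝[sphere w' 1] m, T q = {f, y'}) := by
    intro g u u' hg hu hu' cg cu cu' ngu ngu' nuu'
    have hTm : T m = {g, u, u'} := by
      refine Subset.antisymm (fun i hi => ?_) (by
        rintro i (rfl | rfl | rfl) <;> assumption)
      by_contra hcon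
      simp only [mem_insert_iff, mem_singleton_iff, not_or] at hcon
      exact four_false hm hi hg hu hu' hcon.1 hcon.2.1 hcon.2.2 ngu ngu' nuu'
    have g1 : g ∈ T w := by rw [hw]; rcases cg with rfl | rfl <;> simp
    have g2 : g ∈ T w' := by rw [hw']; rcases cg with rfl | rfl <;> simp
    have u1 : u ∈ T w := by rw [hw]; rcases cu with rfl | rfl <;> simp
    have v1 : u' ∈ T w' := by rw [hw']; rcases cu' with rfl | rfl <;> simp
    have k1 := hC g u u' hTm v1 g1 u1
    have k2 := hC' g u' u (by rw [hTm]; congr 1; exact Set.pair_comm _ _) u1 g2 v1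
    have c1 := common_pair nef ney nfx nxy nex nfy cg cu k1
    have c2 := common_pair nef ney' nfx' nx'y' nex' nfy' cg cu' k2
    rcases c1 with ⟨r1, r2, r3⟩ | ⟨r1, r2, r3⟩
    · rcases c2 with ⟨s1, s2, s3⟩ | ⟨s1, s2, s3⟩
      · left
        exact ⟨by rw [hTm, r1, r2, s2], r3, s3⟩
      · exact absurd (r1.symm.trans s1) nef
    · rcases c2 with ⟨s1, s2, s3⟩ | ⟨s1, s2, s3⟩
      · exact absurd (s1.symm.trans r1) nef
      · right
        exact ⟨by rw [hTm, r1, r2, s2], r3, s3⟩
  rcases hG with h1 | h1 <;> rcases hA' with h2 | h2 <;> rcases hA with h3 | h3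
  · exact fin _ _ _ h1 h2 h3 (Or.inl rfl) (Or.inl rfl) (Or.inl rfl) nex nex' nxx'
  · exact fin _ _ _ h1 h2 h3 (Or.inl rfl) (Or.inl rfl) (Or.inr rfl) nex ney' nxy'
  · exact fin _ _ _ h1 h2 h3 (Or.inl rfl) (Or.inr rfl) (Or.inl rfl) ney nex' nyx'
  · exact fin _ _ _ h1 h2 h3 (Or.inl rfl) (Or.inr rfl) (Or.inr rfl) ney ney' nyy'
  · exact fin _ _ _ h1 h2 h3 (Or.inr rfl) (Or.inl rfl) (Or.inl rfl) nfx nfx' nxx'
  · exact fin _ _ _ h1 h2 h3 (Or.inr rfl) (Or.inl rfl) (Or.inr rfl) nfx nfy' nxy'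
  · exact fin _ _ _ h1 h2 h3 (Or.inr rfl) (Or.inr rfl) (Or.inl rfl) nfy nfx' nyx'
  · exact fin _ _ _ h1 h2 h3 (Or.inr rfl) (Or.inr rfl) (Or.inr rfl) nfy nfy' nyy'

end Irr

/-- END of 394's page: three unit vectors (with equality allowed). -/
theorem end_vec {v v' x : ℂ} (hv : ‖v‖ = 1) (hv' : ‖v'‖ = 1) (hx : ‖x‖ = 1)
    (h1 : ‖v - v'‖ ≤ 1) (h2 : ‖x - v'‖ ≤ 1) (h3 : ‖x + v‖ ≤ 1) : v' = v + x := by
  have e1 : ‖v - v'‖ ^ 2 ≤ 1 := by nlinarith [norm_nonneg (v - v')]
  have e2 : ‖x - v'‖ ^ 2 ≤ 1 := by nlinarith [norm_nonneg (x - v')]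
  have e3 : ‖x + v‖ ^ 2 ≤ 1 := by nlinarith [norm_nonneg (x + v)]
  have q : ∀ a : ℂ, ‖a‖ ^ 2 = a.re ^ 2 + a.im ^ 2 := by
    intro a; rw [Complex.sq_norm, Complex.normSq_apply]; ring
  have n1 : v.re ^ 2 + v.im ^ 2 = 1 := by rw [← q, hv]; norm_num
  have n2 : v'.re ^ 2 + v'.im ^ 2 = 1 := by rw [← q, hv']; norm_num
  have n3 : x.re ^ 2 + x.im ^ 2 = 1 := by rw [← q, hx]; norm_num
  rw [q] at e1 e2 e3
  simp only [Complex.sub_re, Complex.sub_im, Complex.add_re, Complex.add_im] at e1 e2 e3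
  have h0 : (v'.re - v.re - x.re) ^ 2 + (v'.im - v.im - x.im) ^ 2 ≤ 0 := by nlinarith
  have h4 : v'.re - v.re - x.re = 0 := by
    have := sq_nonneg (v'.im - v.im - x.im)
    have := sq_nonneg (v'.re - v.re - x.re)
    exact pow_eq_zero_iff (two_ne_zero) |>.1 (by linarith)
  have h5 : v'.im - v.im - x.im = 0 := by
    have := sq_nonneg (v'.im - v.im - x.im)
    have := sq_nonneg (v'.re - v.re - x.re)
    exact pow_eq_zero_iff (two_ne_zero) |>.1 (by linarith)
  apply Complex.ext
  · simp only [Complex.add_re]; linarith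
  · simp only [Complex.add_im]; linarith

/-- the two common points of two unit circles: symmetric about the middle of the centres -/
theorem second_point {w w' m m' : ℂ} (hne : w ≠ w') (h1 : dist m w = 1) (h2 : dist m w' = 1)
    (h3 : dist m' w = 1) (h4 : dist m' w' = 1) (hm : m ≠ m') : m + m' = w + w' := by
  rw [dist_eq_one_iff] at h1 h2 h3 h4
  -- `u = m + m' - w - w'` is orthogonal to `w - w'` and to `m - m'`
  set ur := m.re + m'.re - w.re - w'.re with hur
  set ui := m.im + m'.im - w.im - w'.im with hui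
  have a1 : (w.re - w'.re) * ur + (w.im - w'.im) * ui = 0 := by rw [hur, hui]; nlinarith
  have a2 : (m.re - m'.re) * ur + (m.im - m'.im) * ui = 0 := by rw [hur, hui]; nlinarith
  have a3 : (m.re - m'.re) * (w.re - w'.re) + (m.im - m'.im) * (w.im - w'.im) = 0 := by nlinarith
  have hD : (w.re - w'.re) ^ 2 + (w.im - w'.im) ^ 2 ≠ 0 := by
    intro h0
    apply hne
    have b1 : w.re - w'.re = 0 := by
      have := sq_nonneg (w.im - w'.im)
      have := sq_nonneg (w.re - w'.re)
      exact pow_eq_zero_iff (two_ne_zero) |>.1 (by linarith)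
    have b2 : w.im - w'.im = 0 := by
      have := sq_nonneg (w.im - w'.im)
      have := sq_nonneg (w.re - w'.re)
      exact pow_eq_zero_iff (two_ne_zero) |>.1 (by linarith)
    exact Complex.ext (by linarith) (by linarith)
  have hM : (m.re - m'.re) ^ 2 + (m.im - m'.im) ^ 2 ≠ 0 := by
    intro h0
    apply hm
    have b1 : m.re - m'.re = 0 := by
      have := sq_nonneg (m.im - m'.im)
      have := sq_nonneg (m.re - m'.re)
      exact pow_eq_zero_iff (two_ne_zero) |>.1 (by linarith)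
    have b2 : m.im - m'.im = 0 := by
      have := sq_nonneg (m.im - m'.im)
      have := sq_nonneg (m.re - m'.re)
      exact pow_eq_zero_iff (two_ne_zero) |>.1 (by linarith)
    exact Complex.ext (by linarith) (by linarith)
  -- the determinant of the two orthogonal vectors is not zero
  set D := (w.re - w'.re) * (m.im - m'.im) - (w.im - w'.im) * (m.re - m'.re) with hDD
  have hD2 : D ^ 2 = ((w.re - w'.re) ^ 2 + (w.im - w'.im) ^ 2) *
      ((m.re - m'.re) ^ 2 + (m.im - m'.im) ^ 2) := by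
    have : D ^ 2 + ((m.re - m'.re) * (w.re - w'.re) + (m.im - m'.im) * (w.im - w'.im)) ^ 2 =
      ((w.re - w'.re) ^ 2 + (w.im - w'.im) ^ 2) *
      ((m.re - m'.re) ^ 2 + (m.im - m'.im) ^ 2) := by rw [hDD]; ring
    rw [a3] at this; linarith
  have hD0 : D ≠ 0 := by
    intro h0
    rw [h0] at hD2
    have : ((w.re - w'.re) ^ 2 + (w.im - w'.im) ^ 2) *
      ((m.re - m'.re) ^ 2 + (m.im - m'.im) ^ 2) = 0 := by linarith
    rcases mul_eq_zero.1 this with h5 | h5
    · exact hD h5
    · exact hM h5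
  have u1 : D * ur = 0 := by
    have : D * ur = ((w.re - w'.re) * ur + (w.im - w'.im) * ui) * (m.im - m'.im) -
      ((m.re - m'.re) * ur + (m.im - m'.im) * ui) * (w.im - w'.im) := by rw [hDD]; ring
    rw [this, a1, a2]; ring
  have u2 : D * ui = 0 := by
    have : D * ui = ((m.re - m'.re) * ur + (m.im - m'.im) * ui) * (w.re - w'.re) -
      ((w.re - w'.re) * ur + (w.im - w'.im) * ui) * (m.re - m'.re) := by rw [hDD]; ring
    rw [this, a1, a2]; ring
  have v1 : ur = 0 := (mul_eq_zero.1 u1).resolve_left hD0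
  have v2 : ui = 0 := (mul_eq_zero.1 u2).resolve_left hD0
  rw [hur] at v1
  rw [hui] at v2
  apply Complex.ext
  · simp only [Complex.add_re]; linarith
  · simp only [Complex.add_im]; linarith

end Vale.Agent.P032.Six
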