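import Vale.Agent.P032.S5.H80.Anti
import Vale.Agent.P032.S5.H824.Common

/-!
# P032: only the two pairs occur on the circle about a two-pair centre

`Irr.twoPairs`: at a point `z` with `T z = {a, b, c, d}`, an exact `ab`-arc and an exact `cd`-arc
on `S(z)`, every locally constant palette of `S(z)` inside `T z` is `{a, b}` or `{c, d}`.
-/

open Set Filter Topology Metric

noncomputable section

namespace Vale.Agent.P032.Six

variable {k : ℕ} {U : Fin k → Set ℂ} {T : ℂ → Set (Fin k)}

/-- a ray towards `g` starts inside `S(g)` -/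
theorem ray_in {z g u : ℂ} (hg : dist z g = 1) (hu : 0 < ip u (g - z)) :
    ∀ᶠ r : ℝ in 𝓝[>] 0, dist (z + r * u) g < 1 := by
  have h0 : 0 ≤ ip u u := by unfold ip; nlinarith [sq_nonneg u.re, sq_nonneg u.im]
  have h1 : ∀ᶠ r : ℝ in 𝓝[>] 0, 0 < r ∧ r < 2 * ip u (g - z) / (ip u u + 1) := by
    filter_upwards [self_mem_nhdsWithin, mem_nhdsWithin_of_mem_nhds (Iio_mem_nhds
      (show (0 : ℝ) < 2 * ip u (g - z) / (ip u u + 1) by positivity))] with r h1 h2
    exact ⟨h1, h2⟩
  filter_upwards [h1] with r hr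
  have h2 : r * (ip u u + 1) < 2 * ip u (g - z) := by
    have := hr.2
    rwa [lt_div_iff₀ (by linarith)] at this
  have h3 := sq_line z u g r
  rw [hg] at h3
  have h4 := dist_nonneg (x := z + r * u) (y := g)
  have h5 : dist (z + r * u) g ^ 2 < 1 := by nlinarith [hr.1, mul_pos hr.1 hr.1]
  nlinarith

/-- a ray away from `g` starts outside `S(g)` -/
theorem ray_out {z g u : ℂ} (hg : dist z g = 1) (hu : ip u (g - z) < 0) :
    ∀ᶠ r : ℝ in 𝓝[>] 0, 1 < dist (z + r * u) g := by
  have h0 : 0 ≤ ip u u := by unfold ip; nlinarith [sq_nonneg u.re, sq_nonneg u.im]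
  filter_upwards [self_mem_nhdsWithin] with r hr
  have hr : 0 < r := hr
  have h3 := sq_line z u g r
  rw [hg] at h3
  have h4 := dist_nonneg (x := z + r * u) (y := g)
  have h5 : 1 < dist (z + r * u) g ^ 2 := by
    nlinarith [mul_pos hr (neg_pos.2 hu), mul_nonneg (sq_nonneg r) h0]
  nlinarith

theorem tendsto_ray (z u : ℂ) : Tendsto (fun r : ℝ => z + r * u) (𝓝[>] 0) (𝓝 z) := by
  have : Continuous fun r : ℝ => z + r * u := by fun_prop
  have h2 := this.tendsto 0
  simp only [Complex.ofReal_zero, zero_mul, add_zero] at h2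
  exact h2.mono_left nhdsWithin_le_nhds

/-- an arc has points off two given lines through the centre -/
theorem Arc.exists_off_two {z p y y' : ℂ} {P : Set (Fin k)} (h : Arc T z p P) :
    ∃ q, Arc T z q P ∧ q ≠ y ∧ q + y ≠ 2 * z ∧ q ≠ y' ∧ q + y' ≠ 2 * z := by
  obtain ⟨q, -, hqz, hqy, hqy2, hJq⟩ := exists_generic (y := y) h.1 h.2
  have hopen : ∀ᶠ x in 𝓝[sphere z 1] q, x ≠ y ∧ x + y ≠ 2 * z := by
    refine mem_nhdsWithin_of_mem_nhds ?_
    have h1 : {x : ℂ | x ≠ y} ∈ 𝓝 q := isOpen_ne.mem_nhds hqy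
    have h2 : {x : ℂ | x + y ≠ 2 * z} ∈ 𝓝 q :=
      (isOpen_ne.preimage (continuous_id.add continuous_const)).mem_nhds hqy2
    exact inter_mem h1 h2
  obtain ⟨q', hq's, hq'z, hq'y, hq'y2, hJq'⟩ := exists_generic (y := y') hqz (inter_mem hJq hopen)
  exact ⟨q', ⟨hq'z, mem_of_superset hJq' inter_subset_left⟩, hq's.2.1, hq's.2.2, hq'y, hq'y2⟩

/-- near the centre of an exact `ab`-arc: where `b` is absent -/
theorem Irr.absent (h : Irr U T) {z g1 u1 u : ℂ} {a b : Fin k} (hg : Arc T z g1 {a, b})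
    (r1 : Ray (U a) z u1) (r2 : Ray (U b) z (-u1))
    (hs : 0 < ip u (g1 - z) * ip u1 (g1 - z)) :
    ∀ᶠ r : ℝ in 𝓝[>] 0, b ∉ Pal U (z + r * u) := by
  have hzg : dist z g1 = 1 := by rw [dist_comm]; exact hg.1
  rcases lt_trichotomy (ip u1 (g1 - z)) 0 with h1 | h1 | h1
  · have h2 : ip u (g1 - z) < 0 := by nlinarith
    have h3 := h.sd_center (a := b) (b := a) (by rwa [pair_comm]) (h.mx.sd_of_rays' r1 r2 hg.1 h1)
    filter_upwards [(tendsto_ray z u).eventually h3, ray_out hzg h2] with r h4 h5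
    exact h4.1 h5
  · rw [h1, mul_zero] at hs
    exact absurd hs (lt_irrefl _)
  · have h2 : 0 < ip u (g1 - z) := by
      by_contra hcon
      push Not at hcon
      nlinarith
    have h3 := h.sd_center hg (h.mx.sd_of_rays r1 r2 hg.1 h1)
    filter_upwards [(tendsto_ray z u).eventually h3, ray_in hzg h2] with r h4 h5
    exact h4.2 h5

/-- `D0` with a sign -/
theorem Irr.d0_sign (h : Irr U T) {z g : ℂ} {a b c d : Fin k} (hz : DPt T z a b c d)
    (hg : Arc T z g {c, d}) : ∃ s : ℝ, (s = 1 ∨ s = -1) ∧ Ray (U a) z (s * (Complex.I * (g - z))) ∧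
      Ray (U b) z (-(s * (Complex.I * (g - z)))) := by
  rcases h.d0 hz hg with ⟨h1, h2⟩ | ⟨h1, h2⟩
  · exact ⟨1, Or.inl rfl, by simpa using h1, by simpa using h2⟩
  · refine ⟨-1, Or.inr rfl, ?_, ?_⟩
    · have : ((-1 : ℝ) : ℂ) * (Complex.I * (g - z)) = -(Complex.I * (g - z)) := by push_cast; ring
      rw [this]; exact h2
    · have : -(((-1 : ℝ) : ℂ) * (Complex.I * (g - z))) = Complex.I * (g - z) := by push_cast; ring
      rw [this]; exact h1

theorem ip_smul (s : ℝ) (a b : ℂ) : ip (s * a) b = s * ip a b := by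
  unfold ip
  simp
  ring

theorem cr_swap (a b : ℂ) : cr a b = -cr b a := by
  unfold cr; ring

/-- **No crossing pair** -/
theorem Irr.no_cross (h : Irr U T) {z p : ℂ} {a b c d : Fin k} (hz : DPt T z a b c d)
    (hp : Arc T z p {a, c}) : False := by
  obtain ⟨p1, hp1⟩ := hz.arc1
  obtain ⟨g1, hg1, hg1p, hg1p2⟩ := hp1.exists_off_line (y := p)
  obtain ⟨p2, hp2⟩ := hz.arc2
  obtain ⟨g2, hg2, hg2p, hg2p2, hg21, hg212⟩ := hp2.exists_off_two (y := p) (y' := g1)
  obtain ⟨s1, hs1, ra, rb⟩ := h.d0_sign hz hg2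
  obtain ⟨s2, hs2, rc, rd⟩ := h.d0_sign hz.swap hg1
  set n := p - z with hn
  set n1 := g1 - z with hn1
  set n2 := g2 - z with hn2
  have c1 : cr n n1 ≠ 0 := by
    rw [cr_swap]; exact neg_ne_zero.2 (cr_ne_of hg1.1 hp.1 hg1p hg1p2)
  have c2 : cr n n2 ≠ 0 := by
    rw [cr_swap]; exact neg_ne_zero.2 (cr_ne_of hg2.1 hp.1 hg2p hg2p2)
  have c3 : cr n2 n1 ≠ 0 := cr_ne_of hg2.1 hg1.1 hg21 hg212
  have e1 : ip (s1 * (Complex.I * n2)) n = s1 * cr n2 n := by rw [ip_smul, ip_I]
  have e2 : ip (s2 * (Complex.I * n1)) n = s2 * cr n1 n := by rw [ip_smul, ip_I]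
  have e3 : ip (s1 * (Complex.I * n2)) n1 = s1 * cr n2 n1 := by rw [ip_smul, ip_I]
  have e4 : ip (s2 * (Complex.I * n1)) n2 = s2 * cr n1 n2 := by rw [ip_smul, ip_I]
  have hs1' : s1 ≠ 0 := by rcases hs1 with rfl | rfl <;> norm_num
  have hs2' : s2 ≠ 0 := by rcases hs2 with rfl | rfl <;> norm_num
  have hnn : ‖n‖ = 1 := by rw [hn, ← dist_eq_norm]; exact hp.1
  have hipn : ip n n = 1 := by
    have := ip_sq hnn
    unfold ip; nlinarith
  -- the rays of `a` and `c` are on different sides of the tangent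
  have hopp : (s1 * cr n2 n) * (s2 * cr n1 n) < 0 := by
    by_contra hcon
    push Not at hcon
    have hpos : 0 < (s1 * cr n2 n) * (s2 * cr n1 n) := by
      refine lt_of_le_of_ne hcon (Ne.symm ?_)
      refine mul_ne_zero (mul_ne_zero hs1' ?_) (mul_ne_zero hs2' ?_)
      · rw [cr_swap]; exact neg_ne_zero.2 c2
      · rw [cr_swap]; exact neg_ne_zero.2 c1
    have hfin : ∀ x, (∀ᶠ y in 𝓝 p, T y ⊆ {a, c}) → T x ⊆ {a, c} → a ∉ Pal U x → c ∉ Pal U x →
        False := by
      intro x _ hx ha hc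
      obtain ⟨i, hi⟩ := h.ne x
      rcases hx hi with rfl | h1
      · exact ha (h.sub _ hi)
      · rw [mem_singleton_iff] at h1
        subst h1
        exact hc (h.sub _ hi)
    have hnear : ∀ᶠ y in 𝓝 p, T y ⊆ {a, c} := by
      have := h.nhd p
      rwa [hp.mem] at this
    have hzp : dist z p = 1 := by rw [dist_comm]; exact hp.1
    rcases lt_or_ge 0 (s1 * cr n2 n) with h1 | h1
    · -- both absent outside
      have h2 : 0 < s2 * cr n1 n := by
        by_contra h3
        push Not at h3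
        nlinarith
      have f1 := h.mx.far ra hp.1 (by rw [← hn, e1]; exact h1)
      have f2 := h.mx.far rc hp.1 (by rw [← hn, e2]; exact h2)
      have hout : ∀ᶠ r : ℝ in 𝓝[>] 0, 1 < dist (p + r * n) z := by
        filter_upwards [self_mem_nhdsWithin] with r hr
        have hr : 0 < r := hr
        have : p + r * n - z = ((1 + r : ℝ) : ℂ) * n := by rw [hn]; push_cast; ring
        rw [dist_eq_norm, this, norm_mul, hnn, Complex.norm_real,
          Real.norm_of_nonneg (by linarith)]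
        linarith
      obtain ⟨r, h3, h4, h5, h6⟩ := (((tendsto_ray p n).eventually f1).and
        (((tendsto_ray p n).eventually f2).and
        (((tendsto_ray p n).eventually hnear).and hout))).exists
      exact hfin _ hnear h5 (h3 h6) (h4 h6)
    · have h1' : s1 * cr n2 n < 0 := by
        refine lt_of_le_of_ne h1 (mul_ne_zero hs1' ?_)
        rw [cr_swap]; exact neg_ne_zero.2 c2
      have h2 : s2 * cr n1 n < 0 := by
        by_contra h3
        push Not at h3
        nlinarith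
      have f1 := h.mx.near ra hp.1 (by rw [← hn, e1]; exact h1')
      have f2 := h.mx.near rc hp.1 (by rw [← hn, e2]; exact h2)
      have hin : ∀ᶠ r : ℝ in 𝓝[>] 0, dist (p + r * (-n)) z < 1 := by
        filter_upwards [self_mem_nhdsWithin,
          mem_nhdsWithin_of_mem_nhds (Iio_mem_nhds (show (0 : ℝ) < 1 by norm_num))] with r hr hr1
        have hr : 0 < r := hr
        have hr1 : r < 1 := hr1
        have : p + r * (-n) - z = ((1 - r : ℝ) : ℂ) * n := by rw [hn]; push_cast; ring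
        rw [dist_eq_norm, this, norm_mul, hnn, Complex.norm_real,
          Real.norm_of_nonneg (by linarith)]
        linarith
      obtain ⟨r, h3, h4, h5, h6⟩ := (((tendsto_ray p (-n)).eventually f1).and
        (((tendsto_ray p (-n)).eventually f2).and
        (((tendsto_ray p (-n)).eventually hnear).and hin))).exists
      exact hfin _ hnear h5 (h3 h6) (h4 h6)
  -- the direction of the ray without colours
  obtain ⟨t0, ht0⟩ := exists_cis (u := p - z) (by rw [← dist_eq_norm]; exact hp.1)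
  have hpt : p = z + cis t0 := by rw [← ht0]; ring
  have hp' : Arc T z (z + cis t0) {a, c} := by rw [← hpt]; exact hp
  obtain ⟨η, hη, hJ⟩ := hp'.exists_eta
  have main : ∀ τ : ℝ, (τ = 1 ∨ τ = -1) → 0 < (τ * cr n n1) * (s1 * cr n2 n1) →
      0 < (τ * cr n n2) * (s2 * cr n1 n2) → False := by
    intro τ hτ h1 h2
    have k1 : ip (τ * (Complex.I * n)) n1 = τ * cr n n1 := by rw [ip_smul, ip_I]
    have k2 : ip (τ * (Complex.I * n)) n2 = τ * cr n n2 := by rw [ip_smul, ip_I]
    have q1 := h.absent (u := τ * (Complex.I * n)) hg1 ra rb (by rw [← hn1, k1, e3]; exact h1)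
    have q2 := h.absent (u := τ * (Complex.I * n)) hg2 rc rd (by rw [← hn2, k2, e4]; exact h2)
    have q3 := h.mx.ray_avoid hη (i := a) (fun t ht => h.sub _ (by rw [hJ t ht]; simp)) hτ
    have q4 := h.mx.ray_avoid hη (i := c) (fun t ht => h.sub _ (by rw [hJ t ht]; simp)) hτ
    rw [← ht0, ← hn] at q3 q4
    obtain ⟨r, w1, w2, w3, w4, w5⟩ := (q1.and (q2.and (q3.and (q4.and
      ((tendsto_ray z (τ * (Complex.I * n))).eventually (h.nhd z)))))).exists
    obtain ⟨i, hi⟩ := h.ne (z + r * (τ * (Complex.I * n)))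
    have w6 := w5 hi
    rw [hz.pal] at w6
    rcases w6 with rfl | rfl | rfl | w6
    · exact w3 (h.sub _ hi)
    · exact w1 (h.sub _ hi)
    · exact w4 (h.sub _ hi)
    · rw [mem_singleton_iff] at w6
      subst w6
      exact w2 (h.sub _ hi)
  have hc31 : cr n1 n2 = -cr n2 n1 := cr_swap _ _
  have hprod : 0 < (cr n n1 * (s1 * cr n2 n1)) * (cr n n2 * (s2 * cr n1 n2)) := by
    have h1 : (cr n n1 * (s1 * cr n2 n1)) * (cr n n2 * (s2 * cr n1 n2)) =
        -((s1 * cr n2 n) * (s2 * cr n1 n)) * (cr n2 n1) ^ 2 := by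
      rw [hc31, cr_swap n2 n, cr_swap n1 n]; ring
    rw [h1]
    have : 0 < (cr n2 n1) ^ 2 := by positivity
    nlinarith
  rcases lt_or_ge 0 (cr n n1 * (s1 * cr n2 n1)) with h1 | h1
  · have h2 : 0 < cr n n2 * (s2 * cr n1 n2) := by
      by_contra h3
      push Not at h3
      nlinarith
    exact main 1 (Or.inl rfl) (by linarith) (by linarith)
  · have h1' : cr n n1 * (s1 * cr n2 n1) < 0 := by
      refine lt_of_le_of_ne h1 (mul_ne_zero c1 (mul_ne_zero hs1' c3))
    have h2 : cr n n2 * (s2 * cr n1 n2) < 0 := by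
      by_contra h3
      push Not at h3
      nlinarith
    exact main (-1) (Or.inr rfl) (by linarith) (by linarith)

/-- **Only the two pairs occur** -/
theorem Irr.twoPairs {U : Fin 6 → Set ℂ} {T : ℂ → Set (Fin 6)} (h : Irr U T) {z : ℂ}
    {a b c d : Fin 6} (hz : DPt T z a b c d) : TwoPairs T z {a, b} {c, d} := by
  intro q hq hloc hsub
  have hX : z ∈ XX U := by
    obtain ⟨i, hi⟩ := h.ne q
    exact h.mem_XX (by rw [dist_comm]; exact hq) (hsub hi) (h.sub q hi)
  have hge : 2 ≤ (T z \ T q).ncard := h.gap_two hX hq (hloc.mono fun q' hq' => by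
    rw [← hq']; exact h.sub q')
  have h4 : (T z).ncard ≤ 4 := by
    rw [hz.pal]
    refine (Set.ncard_insert_le _ _).trans ?_
    refine (Nat.succ_le_succ (Set.ncard_insert_le _ _)).trans ?_
    refine (Nat.succ_le_succ (Nat.succ_le_succ (Set.ncard_insert_le _ _))).trans ?_
    simp
  have hle : (T q).ncard ≤ 2 := by
    have := Set.ncard_sdiff hsub (Set.toFinite _)
    have := Set.ncard_le_ncard hsub (Set.toFinite _)
    omega
  have hns : ∀ i, T q ≠ {i} := by
    intro i hi
    have h5 : q ∈ U i := h.mem_of_single (by rw [hi])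
    exact h.mx.notMem' h5 hq (h.sub z (hsub (by rw [hi]; rfl)))
  have hgt : 1 < (T q).ncard := by
    have h5 : 0 < (T q).ncard := (Set.ncard_pos (Set.toFinite _)).2 (h.ne q)
    by_contra hcon
    have h6 : (T q).ncard = 1 := by omega
    obtain ⟨i, hi⟩ := Set.ncard_eq_one.1 h6
    exact hns i hi
  obtain ⟨i, j, hij, hTq⟩ := Set.ncard_eq_two.1 (show (T q).ncard = 2 by omega)
  have hA : ∀ P, T q = P → Arc T z q P := fun P hP => ⟨hq, by rw [← hP]; exact hloc⟩
  have hi : i = a ∨ i = b ∨ i = c ∨ i = d := by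
    have : i ∈ T z := hsub (by rw [hTq]; simp)
    rw [hz.pal] at this
    simpa using this
  have hj : j = a ∨ j = b ∨ j = c ∨ j = d := by
    have : j ∈ T z := hsub (by rw [hTq]; simp)
    rw [hz.pal] at this
    simpa using this
  have x1 : T q ≠ {a, c} := fun e => h.no_cross hz (hA _ e)
  have x2 : T q ≠ {a, d} := fun e => h.no_cross hz.swap34 (hA _ e)
  have x3 : T q ≠ {b, c} := fun e => h.no_cross hz.swap12 (hA _ e)
  have x4 : T q ≠ {b, d} := fun e => h.no_cross hz.swap12.swap34 (hA _ e)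
  rcases hi with rfl | rfl | rfl | rfl <;> rcases hj with rfl | rfl | rfl | rfl
  · exact absurd rfl hij
  · exact Or.inl hTq
  · exact absurd hTq x1
  · exact absurd hTq x2
  · exact Or.inl (by rw [hTq, pair_comm])
  · exact absurd rfl hij
  · exact absurd hTq x3
  · exact absurd hTq x4
  · exact absurd (by rw [hTq, pair_comm]) x1
  · exact absurd (by rw [hTq, pair_comm]) x3
  · exact absurd rfl hij
  · exact Or.inr hTq
  · exact absurd (by rw [hTq, pair_comm]) x2
  · exact absurd (by rw [hTq, pair_comm]) x4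
  · exact Or.inr (by rw [hTq, pair_comm])
  · exact absurd rfl hij

end Vale.Agent.P032.Six
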